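import Vale.Agent.Lib.P328.PBinfCov.XHalf
import Vale.Agent.Lib.P328.PBinf.C3

/-!
Passage from rows to trials: the trials are the sigma type of the rows; the inequality `X ≥ X₁/2`
in the trial level language of `Vale.Agent.Lib.P328.PBinf`.
-/

open Finset Polynomial

namespace Vale.Agent.Lib.P328.PBinfCov

open Vale.Agent.Lib.P328.PBinf

set_option linter.unusedSectionVars false
set_option linter.unusedVariables false

variable {ι : Type*} [Fintype ι] [DecidableEq ι]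

/-- The trials of the rows `R`. -/
abbrev Trial (R : ι → ℕ) := Σ i, Fin (R i)

/-- The probability of a trial. -/
def trialP (p : ι → ℝ) (R : ι → ℕ) : Trial R → ℝ := fun t => p t.1

theorem uu_ne_zero (x : ℝ) : uu x ≠ 0 := by
  intro h
  have h2 := congrArg (Polynomial.eval 1) h
  simp [uu] at h2

theorem GP_eq_uu (p : ι → ℝ) (R : ι → ℕ) : GP p R = ∏ i, uu (p i) ^ R i := rfl

theorem GP_step (p : ι → ℝ) (R : ι → ℕ) {i : ι} (hi : 1 ≤ R i) :
    GP p R = uu (p i) * GP p (R - ee i) := by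
  conv_lhs => rw [← sub_add_cancel_vec R hi, GP_add_single]
  simp only [uu]
  ring

theorem GG_trial (p : ι → ℝ) (R : ι → ℕ) : GG (trialP p R) = GP p R := by
  unfold GG
  rw [Fintype.prod_sigma, GP_eq_uu]
  apply Finset.prod_congr rfl
  intro i _
  simp [trialP]

theorem AA_trial (p : ι → ℝ) (R : ι → ℕ) (t : Trial R) :
    AA (trialP p R) t = GP p (R - ee t.1) := by
  have hi : 1 ≤ R t.1 := by have := t.2.isLt; omega
  have h1 : GG (trialP p R) = uu (trialP p R t) * AA (trialP p R) t := by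
    unfold GG AA
    exact (Finset.mul_prod_erase univ (fun s => uu (trialP p R s)) (Finset.mem_univ t)).symm
  rw [GG_trial, GP_step p R hi] at h1
  exact (mul_left_cancel₀ (uu_ne_zero _) h1).symm

theorem law_trial (p : ι → ℝ) (R : ι → ℕ) (hR : ∀ i, R i ≠ 1) (pt : Trial R → Trial R)
    (hrow : ∀ t, (pt t).1 = t.1) (hne : ∀ t, pt t ≠ t) (t : Trial R) :
    law (trialP p R) (Yt pt t) = GP p (R - ee t.1 - ee t.1) := by
  have hi : 2 ≤ R t.1 := by
    have h1 := t.2.isLt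
    have h2 := hR t.1
    omega
  have hp : ∀ s, trialP p R (pt s) = trialP p R s := by
    intro s
    simp [trialP, hrow]
  have h1 := AA_eq_mul (trialP p R) pt hne hp t
  rw [AA_trial, GP_step p (R - ee t.1) (i := t.1) (by simp [ee]; omega)] at h1
  exact (mul_left_cancel₀ (uu_ne_zero _) h1).symm

/-- A sum over trials depending only on the row. -/
theorem sum_trial (R : ι → ℕ) (f : ι → ℝ) :
    ∑ t : Trial R, f t.1 = ∑ i, (R i : ℝ) * f i := by
  rw [Fintype.sum_sigma]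
  apply Finset.sum_congr rfl
  intro i _
  simp

theorem EE_coeff (p : ι → ℝ) (R : ι → ℕ) (i : ι) (d : ℕ) :
    EE p R i ((d + 2 : ℕ) : ℤ) = (GP p (R - ee i)).coeff (d + 1) := by
  unfold EE
  have : ((d + 2 : ℕ) : ℤ) - 1 = ((d + 1 : ℕ) : ℤ) := by push_cast; ring
  rw [this, gg_natCast]

theorem DD_coeff (p : ι → ℝ) (R : ι → ℕ) (i : ι) (d : ℕ) :
    DD p R i ((d + 2 : ℕ) : ℤ) = (GP p (R - ee i - ee i)).coeff d := by
  unfold DD
  have : ((d + 2 : ℕ) : ℤ) - 2 = ((d : ℕ) : ℤ) := by push_cast; ring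
  rw [this, gg_natCast]

/-- The covariance input of `c3_final` and `cge4_final` for the trials of rows. -/
theorem hX_trial {p : ι → ℝ} (h0 : ∀ i, 0 ≤ p i) (h1 : ∀ i, p i ≤ 1) (R : ι → ℕ)
    (hR : ∀ i, R i ≠ 1) (d : ℕ) (hmean : ∑ i, (R i : ℝ) * p i = ((d + 2 : ℕ) : ℝ))
    (pt : Trial R → Trial R) (hrow : ∀ t, (pt t).1 = t.1) (hne : ∀ t, pt t ≠ t) :
    (1 / 2) * ∑ t, trialP p R t ^ 3 * (law (trialP p R) (Yt pt t)).coeff d
      ≤ ((d + 2 : ℕ) : ℝ) * ∑ t, trialP p R t ^ 2 * (law (trialP p R) (Yt pt t)).coeff d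
        - ((d : ℝ) + 1) * ∑ t, trialP p R t ^ 2 * (AA (trialP p R) t).coeff (d + 1) := by
  have hX := X_half h0 h1 R hR ((d + 2 : ℕ) : ℤ) (by push_cast; omega)
    (by rw [hmean]; push_cast; ring)
  have s1 : ∑ t, trialP p R t ^ 3 * (law (trialP p R) (Yt pt t)).coeff d
      = ∑ i, (R i : ℝ) * p i ^ 3 * DD p R i ((d + 2 : ℕ) : ℤ) := by
    have h := sum_trial R (fun i => p i ^ 3 * DD p R i ((d + 2 : ℕ) : ℤ))
    have h2 : ∀ t : Trial R, trialP p R t ^ 3 * (law (trialP p R) (Yt pt t)).coeff d = (fun i => p i ^ 3 * DD p R i ((d + 2 : ℕ) : ℤ)) t.1 := by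
      intro t
      show trialP p R t ^ 3 * (law (trialP p R) (Yt pt t)).coeff d = p t.1 ^ 3 * DD p R t.1 ((d + 2 : ℕ) : ℤ)
      rw [law_trial p R hR pt hrow hne, DD_coeff]
      rfl
    rw [Finset.sum_congr rfl (fun t _ => h2 t), h]
    exact Finset.sum_congr rfl (fun i _ => by ring)
  have s2 : ∑ t, trialP p R t ^ 2 * (law (trialP p R) (Yt pt t)).coeff d
      = ∑ i, (R i : ℝ) * p i ^ 2 * DD p R i ((d + 2 : ℕ) : ℤ) := by
    have h := sum_trial R (fun i => p i ^ 2 * DD p R i ((d + 2 : ℕ) : ℤ))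
    have h2 : ∀ t : Trial R, trialP p R t ^ 2 * (law (trialP p R) (Yt pt t)).coeff d = (fun i => p i ^ 2 * DD p R i ((d + 2 : ℕ) : ℤ)) t.1 := by
      intro t
      show trialP p R t ^ 2 * (law (trialP p R) (Yt pt t)).coeff d = p t.1 ^ 2 * DD p R t.1 ((d + 2 : ℕ) : ℤ)
      rw [law_trial p R hR pt hrow hne, DD_coeff]
      rfl
    rw [Finset.sum_congr rfl (fun t _ => h2 t), h]
    exact Finset.sum_congr rfl (fun i _ => by ring)
  have s3 : ∑ t, trialP p R t ^ 2 * (AA (trialP p R) t).coeff (d + 1)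
      = ∑ i, (R i : ℝ) * p i ^ 2 * EE p R i ((d + 2 : ℕ) : ℤ) := by
    have h := sum_trial R (fun i => p i ^ 2 * EE p R i ((d + 2 : ℕ) : ℤ))
    have h2 : ∀ t : Trial R, trialP p R t ^ 2 * (AA (trialP p R) t).coeff (d + 1) = (fun i => p i ^ 2 * EE p R i ((d + 2 : ℕ) : ℤ)) t.1 := by
      intro t
      show trialP p R t ^ 2 * (AA (trialP p R) t).coeff (d + 1) = p t.1 ^ 2 * EE p R t.1 ((d + 2 : ℕ) : ℤ)
      rw [AA_trial, EE_coeff]
      rfl
    rw [Finset.sum_congr rfl (fun t _ => h2 t), h]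
    exact Finset.sum_congr rfl (fun i _ => by ring)
  rw [s1, s2, s3]
  have e1 : (((d + 2 : ℕ) : ℤ) : ℝ) = ((d + 2 : ℕ) : ℝ) := by push_cast; ring
  have e2 : ((d + 2 : ℕ) : ℝ) - 1 = (d : ℝ) + 1 := by push_cast; ring
  rw [e1, e2] at hX
  exact hX

/-- The cyclic partner inside a row. -/
def partnerMap (R : ι → ℕ) (t : Trial R) : Trial R :=
  ⟨t.1, ⟨(t.2.val + 1) % R t.1, Nat.mod_lt _ (by have := t.2.isLt; omega)⟩⟩

theorem partnerMap_row (R : ι → ℕ) (t : Trial R) : (partnerMap R t).1 = t.1 := rfl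

theorem partnerMap_ne (R : ι → ℕ) (hR : ∀ i, R i ≠ 1) (t : Trial R) : partnerMap R t ≠ t := by
  obtain ⟨i, a⟩ := t
  intro h
  have h2 : ((a.val + 1) % R i) = a.val := by
    have := Sigma.mk.inj_iff.mp h
    have h3 := eq_of_heq this.2
    exact congrArg Fin.val h3
  have ha := a.isLt
  have hi := hR i
  by_cases hlt : a.val + 1 < R i
  · rw [Nat.mod_eq_of_lt hlt] at h2
    omega
  · have : a.val + 1 = R i := by omega
    rw [this, Nat.mod_self] at h2
    omega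

theorem trialP_partner (p : ι → ℝ) (R : ι → ℕ) (t : Trial R) :
    trialP p R (partnerMap R t) = trialP p R t := rfl

end Vale.Agent.Lib.P328.PBinfCov
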