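import Mathlib

/-!
Row-level Poisson-binomial coefficients with integer levels, and basic identities.
`gg p R k` is the coefficient of `z^k` in `∏ i, (1 - p i + p i z)^(R i)`, and `0` for `k < 0`.
-/

open Finset Polynomial

namespace Vale.Agent.Lib.P328.PBinfCov

set_option linter.unusedSectionVars false

variable {ι : Type*} [Fintype ι] [DecidableEq ι]

/-- The generating polynomial of independent rows. -/
noncomputable def GP (p : ι → ℝ) (R : ι → ℕ) : ℝ[X] :=
  ∏ i, (C (1 - p i) + C (p i) * X) ^ R i

/-- Coefficient at an integer level. -/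
noncomputable def gg (p : ι → ℝ) (R : ι → ℕ) (k : ℤ) : ℝ :=
  if 0 ≤ k then (GP p R).coeff k.toNat else 0

/-- Unit vector. -/
abbrev ee (i : ι) : ι → ℕ := Pi.single i 1

theorem gg_neg (p : ι → ℝ) (R : ι → ℕ) {k : ℤ} (hk : k < 0) : gg p R k = 0 := by
  simp [gg, not_le.mpr hk]

theorem gg_natCast (p : ι → ℝ) (R : ι → ℕ) (n : ℕ) : gg p R (n : ℤ) = (GP p R).coeff n := by
  simp [gg]

theorem GP_add_single (p : ι → ℝ) (R : ι → ℕ) (j : ι) :
    GP p (R + ee j) = GP p R * (C (1 - p j) + C (p j) * X) := by
  unfold GP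
  rw [← Finset.mul_prod_erase _ _ (Finset.mem_univ j),
    ← Finset.mul_prod_erase (a := j) (Finset.univ) (fun i => (C (1 - p i) + C (p i) * X) ^ R i)
      (Finset.mem_univ j)]
  have h : ∏ x ∈ Finset.univ.erase j, (C (1 - p x) + C (p x) * X) ^ (R + ee j) x
      = ∏ x ∈ Finset.univ.erase j, (C (1 - p x) + C (p x) * X) ^ R x := by
    apply Finset.prod_congr rfl
    intro x hx
    have hxj : x ≠ j := Finset.ne_of_mem_erase hx
    simp [ee, Pi.single_eq_of_ne hxj]
  rw [h]
  simp only [Pi.add_apply, ee, Pi.single_eq_same, pow_succ]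
  ring

/-- The basic recursion. -/
theorem gg_add_single (p : ι → ℝ) (R : ι → ℕ) (j : ι) (k : ℤ) :
    gg p (R + ee j) k = (1 - p j) * gg p R k + p j * gg p R (k - 1) := by
  rcases lt_trichotomy k 0 with hk | hk | hk
  · rw [gg_neg _ _ hk, gg_neg _ _ hk, gg_neg _ _ (by omega : k - 1 < 0)]; ring
  · subst hk
    rw [gg_neg _ _ (by norm_num : (0 : ℤ) - 1 < 0)]
    have h0 : (0 : ℤ) = ((0 : ℕ) : ℤ) := by norm_num
    rw [h0, gg_natCast, gg_natCast, GP_add_single]
    simp [Polynomial.mul_coeff_zero]
    ring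
  · obtain ⟨n, rfl⟩ : ∃ n : ℕ, k = ((n + 1 : ℕ) : ℤ) := by
      refine ⟨(k - 1).toNat, ?_⟩
      have : ((k - 1).toNat : ℤ) = k - 1 := Int.toNat_of_nonneg (by omega)
      push_cast; omega
    have h1 : ((n + 1 : ℕ) : ℤ) - 1 = (n : ℤ) := by push_cast; ring
    rw [h1, gg_natCast, gg_natCast, gg_natCast, GP_add_single]
    have : GP p R * (C (1 - p j) + C (p j) * X)
        = C (1 - p j) * GP p R + C (p j) * (GP p R * X) := by ring
    rw [this]
    rw [Polynomial.coeff_add, Polynomial.coeff_C_mul, Polynomial.coeff_C_mul, Polynomial.coeff_mul_X]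

theorem gg_zero_vec (p : ι → ℝ) (k : ℤ) : gg p (0 : ι → ℕ) k = if k = 0 then 1 else 0 := by
  unfold gg GP
  simp only [Pi.zero_apply, pow_zero, Finset.prod_const_one]
  by_cases h0 : k = 0
  · subst h0; simp
  · rw [if_neg h0]
    by_cases h1 : 0 ≤ k
    · rw [if_pos h1, Polynomial.coeff_one]
      have : k.toNat ≠ 0 := by omega
      simp [this]
    · rw [if_neg h1]

/-- Induction on exponent vectors. -/
theorem vec_induction {P : (ι → ℕ) → Prop} (h0 : P 0)
    (hs : ∀ R j, P R → P (R + ee j)) : ∀ R, P R := by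
  have key : ∀ n : ℕ, ∀ R : ι → ℕ, ∑ i, R i = n → P R := by
    intro n
    induction n with
    | zero =>
      intro R hR
      have : R = 0 := by
        funext i
        have := (Finset.sum_eq_zero_iff_of_nonneg (fun i _ => Nat.zero_le (R i))).1 hR i
          (Finset.mem_univ i)
        simpa using this
      rw [this]; exact h0
    | succ n ih =>
      intro R hR
      have : ∃ j, 1 ≤ R j := by
        by_contra hcon
        simp only [not_exists, not_le] at hcon
        have h0' : ∑ i, R i = 0 :=
          Finset.sum_eq_zero (fun i _ => by have := hcon i; omega)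
        omega
      obtain ⟨j, hj⟩ := this
      have hR' : (R - ee j) + ee j = R := by
        funext i
        by_cases hij : i = j
        · subst hij; simp [ee]; omega
        · simp [ee, Pi.single_eq_of_ne hij]
      have hsum : ∑ i, (R - ee j) i = n := by
        have h2 : ∑ i, ((R - ee j) + ee j) i = ∑ i, (R - ee j) i + 1 := by
          simp only [Pi.add_apply, Finset.sum_add_distrib]
          congr 1
          simp [ee]
        rw [hR'] at h2
        omega
      have := hs _ j (ih _ hsum)
      rwa [hR'] at this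
  intro R
  exact key _ R rfl

/-- Nonnegativity of the coefficients. -/
theorem gg_nonneg {p : ι → ℝ} (h0 : ∀ i, 0 ≤ p i) (h1 : ∀ i, p i ≤ 1) (R : ι → ℕ) (k : ℤ) :
    0 ≤ gg p R k := by
  revert k
  refine vec_induction (P := fun R => ∀ k, 0 ≤ gg p R k) ?_ ?_ R
  · intro k
    rw [gg_zero_vec]
    split_ifs <;> norm_num
  · intro R j ih k
    rw [gg_add_single]
    have := ih k
    have := ih (k - 1)
    have := h0 j
    have : 0 ≤ 1 - p j := by linarith [h1 j]
    positivity

/-- The second-order Toeplitz minors are nonnegative. -/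
theorem gg_tp2 {p : ι → ℝ} (h0 : ∀ i, 0 ≤ p i) (h1 : ∀ i, p i ≤ 1) (R : ι → ℕ) :
    ∀ u v : ℤ, u ≤ v → gg p R (u - 1) * gg p R (v + 1) ≤ gg p R u * gg p R v := by
  refine vec_induction (P := fun R => ∀ u v : ℤ, u ≤ v →
    gg p R (u - 1) * gg p R (v + 1) ≤ gg p R u * gg p R v) ?_ ?_ R
  · intro u v huv
    simp only [gg_zero_vec]
    by_cases h1 : u - 1 = 0
    · by_cases h2 : v + 1 = 0
      · omega
      · simp only [h2, if_false, mul_zero]
        split_ifs <;> norm_num
    · simp only [h1, if_false, zero_mul]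
      split_ifs <;> norm_num
  · intro R j ih u v huv
    simp only [gg_add_single]
    have hp := h0 j
    have hq : 0 ≤ 1 - p j := by linarith [h1 j]
    set q := 1 - p j with hqdef
    set x := p j with hxdef
    have e1 := ih u v huv
    have e2 := ih (u - 1) (v - 1) (by omega)
    -- the cross term
    have e3 : gg p R (u - 1 - 1) * gg p R (v + 1) ≤ gg p R u * gg p R (v - 1) := by
      by_cases hlt : u ≤ v - 1
      · have a1 := ih u (v - 1) hlt
        have a2 := ih (u - 1) v (by omega)
        have a3 : v - 1 + 1 = v := by ring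
        rw [a3] at a1
        linarith
      · have huv' : u = v := by omega
        subst huv'
        have a1 := ih (u - 1) u (by omega)
        linarith [mul_comm (gg p R (u - 1)) (gg p R u)]
    have r1 : v + 1 - 1 = v := by ring
    have r2 : u - 1 + 1 = u := by ring
    have r3 : v - 1 + 1 = v := by ring
    rw [r1] at *
    have e2' : gg p R (u - 1 - 1) * gg p R v ≤ gg p R (u - 1) * gg p R (v - 1) := by
      have := e2
      rw [r3] at this
      exact this
    have key : (q * gg p R u + x * gg p R (u - 1)) * (q * gg p R v + x * gg p R (v - 1))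
        - (q * gg p R (u - 1) + x * gg p R (u - 1 - 1)) * (q * gg p R (v + 1) + x * gg p R v)
        = q ^ 2 * (gg p R u * gg p R v - gg p R (u - 1) * gg p R (v + 1))
          + x ^ 2 * (gg p R (u - 1) * gg p R (v - 1) - gg p R (u - 1 - 1) * gg p R v)
          + q * x * (gg p R u * gg p R (v - 1) - gg p R (u - 1 - 1) * gg p R (v + 1)) := by
      ring
    have t1 : 0 ≤ q ^ 2 * (gg p R u * gg p R v - gg p R (u - 1) * gg p R (v + 1)) :=
      mul_nonneg (by positivity) (by linarith)
    have t2 : 0 ≤ x ^ 2 * (gg p R (u - 1) * gg p R (v - 1) - gg p R (u - 1 - 1) * gg p R v) :=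
      mul_nonneg (by positivity) (by linarith)
    have t3 : 0 ≤ q * x * (gg p R u * gg p R (v - 1) - gg p R (u - 1 - 1) * gg p R (v + 1)) :=
      mul_nonneg (by positivity) (by linarith)
    linarith

/-- The Newton discriminant. -/
noncomputable def Dt (p : ι → ℝ) (W : ι → ℕ) (k : ℤ) : ℝ :=
  gg p W k ^ 2 - gg p W (k + 1) * gg p W (k - 1)

theorem Dt_nonneg {p : ι → ℝ} (h0 : ∀ i, 0 ≤ p i) (h1 : ∀ i, p i ≤ 1) (W : ι → ℕ) (k : ℤ) :
    0 ≤ Dt p W k := by
  have := gg_tp2 h0 h1 W k k le_rfl
  unfold Dt
  nlinarith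

/-- Commuting an addition and a removal at different places. -/
theorem add_sub_comm_vec (R : ι → ℕ) {i j : ι} (hij : i ≠ j) :
    R + ee j - ee i = R - ee i + ee j := by
  funext l
  simp only [Pi.add_apply, Pi.sub_apply, ee]
  by_cases h1 : l = i
  · subst h1
    simp [Pi.single_eq_of_ne hij]
  · by_cases h2 : l = j
    · subst h2
      simp [Pi.single_eq_of_ne h1]
    · simp [Pi.single_eq_of_ne h1, Pi.single_eq_of_ne h2]

theorem sub_add_cancel_vec (R : ι → ℕ) {i : ι} (hi : 1 ≤ R i) : R - ee i + ee i = R := by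
  funext l
  simp only [Pi.add_apply, Pi.sub_apply, ee]
  by_cases h1 : l = i
  · subst h1
    simp; omega
  · simp [Pi.single_eq_of_ne h1]

theorem add_sub_cancel_vec (R : ι → ℕ) (i : ι) : R + ee i - ee i = R := by
  funext l
  simp only [Pi.add_apply, Pi.sub_apply, ee]
  by_cases h1 : l = i
  · subst h1
    simp
  · simp [Pi.single_eq_of_ne h1]

/-- Euler's identity, i.e. `k P(S=k) = ∑ P(ξ=1, S=k)`. -/
theorem euler (p : ι → ℝ) (R : ι → ℕ) : ∀ k : ℤ,
    (k : ℝ) * gg p R k = ∑ i, (R i : ℝ) * p i * gg p (R - ee i) (k - 1) := by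
  refine vec_induction (P := fun R => ∀ k : ℤ,
    (k : ℝ) * gg p R k = ∑ i, (R i : ℝ) * p i * gg p (R - ee i) (k - 1)) ?_ ?_ R
  · intro k
    simp only [gg_zero_vec, Pi.zero_apply, Nat.cast_zero, zero_mul, Finset.sum_const_zero]
    by_cases h : k = 0
    · simp [h]
    · simp [h]
  · intro R j ih k
    have h1 := ih k
    have h2 := ih (k - 1)
    rw [gg_add_single]
    -- left side
    have hL : (k : ℝ) * ((1 - p j) * gg p R k + p j * gg p R (k - 1))
        = (1 - p j) * ((k : ℝ) * gg p R k) + p j * (((k - 1 : ℤ) : ℝ) * gg p R (k - 1))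
          + p j * gg p R (k - 1) := by
      push_cast; ring
    rw [hL, h1, h2]
    -- right side termwise
    have hR : ∀ i, ((R + ee j) i : ℝ) * p i * gg p (R + ee j - ee i) (k - 1)
        = (R i : ℝ) * p i * ((1 - p j) * gg p (R - ee i) (k - 1)
            + p j * gg p (R - ee i) (k - 1 - 1))
          + (if i = j then p j * gg p R (k - 1) else 0) := by
      intro i
      by_cases hij : i = j
      · subst hij
        rw [add_sub_cancel_vec]
        simp only [Pi.add_apply, ee, Pi.single_eq_same, if_true]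
        push_cast
        by_cases hRi : 1 ≤ R i
        · have := gg_add_single p (R - ee i) i (k - 1)
          rw [sub_add_cancel_vec R hRi] at this
          rw [← this]
          ring
        · have : R i = 0 := by omega
          simp [this]
      · rw [add_sub_comm_vec R hij, gg_add_single]
        simp only [Pi.add_apply, ee, Pi.single_eq_of_ne hij, if_neg hij]
        simp
    rw [Finset.sum_congr rfl (fun i _ => hR i), Finset.sum_add_distrib, Finset.mul_sum,
      Finset.mul_sum, ← Finset.sum_add_distrib]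
    simp only [Finset.sum_ite_eq', Finset.mem_univ, if_true]
    congr 1
    apply Finset.sum_congr rfl
    intro i _
    ring

end Vale.Agent.Lib.P328.PBinfCov
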