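import Vale.Agent.Lib.P328.PBinfCov.Rec

/-!
Rows of size one are handled by conditioning; the covariance bound for all vectors.
-/

open Finset

namespace Vale.Agent.Lib.P328.PBinfCov

set_option linter.unusedSectionVars false
set_option linter.unusedVariables false

variable {ι : Type*} [Fintype ι] [DecidableEq ι]

section

variable {p : ι → ℝ} (h0 : ∀ i, 0 ≤ p i) (h1 : ∀ i, p i ≤ 1)
include h0 h1

/-- A row of size one: mixture of two levels. -/
theorem lemC_unit (R : ι → ℕ) {j : ι} (hj : R j = 1) (k : ℤ)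
    (IH0 : LemC p (R - ee j) k) (IH1 : LemC p (R - ee j) (k - 1)) : LemC p R k := by
  set R' := R - ee j with hR'
  have hRR : R = R' + ee j := (sub_add_cancel_vec R (by omega)).symm
  have hR'j : R' j = 0 := by simp [hR', ee]; omega
  set P := p j with hP
  set Q := 1 - p j with hQ
  have hPn : 0 ≤ P := h0 j
  have hQn : 0 ≤ Q := by have := h1 j; simp only [hQ]; linarith
  have hgg : gg p R k = Q * gg p R' k + P * gg p R' (k - 1) := by
    rw [hRR, gg_add_single]
  -- each term
  have hE : ∀ i, i ≠ j → EE p R i k = Q * EE p R' i k + P * EE p R' i (k - 1) := by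
    intro i hij
    unfold EE
    rw [hRR, add_sub_comm_vec R' hij, gg_add_single]
  have hD : ∀ i, i ≠ j → DD p R i k = Q * DD p R' i k + P * DD p R' i (k - 1) := by
    intro i hij
    unfold DD
    have e1 : k - 1 - 2 = k - 2 - 1 := by ring
    rw [hRR, add_sub_comm_vec R' hij, add_sub_comm_vec (R' - ee i) hij, gg_add_single, e1]
  unfold LemC at *
  set z0 := gg p R' k with hz0
  set z1 := gg p R' (k - 1) with hz1
  have hz0n : 0 ≤ z0 := gg_nonneg h0 h1 _ _
  have hz1n : 0 ≤ z1 := gg_nonneg h0 h1 _ _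
  -- the summands with explicit data
  have hCT : ∀ i, i ≠ j → CT p R k i = if 2 ≤ R' i then
      (R' i : ℝ) * ((Q * (p i * EE p R' i k) + P * (p i * EE p R' i (k - 1))) ^ 2
        - (Q * (p i ^ 2 * DD p R' i k) + P * (p i ^ 2 * DD p R' i (k - 1)))
          * (Q * z0 + P * z1)) else 0 := by
    intro i hij
    have hRi : R i = R' i := by simp [hR', ee, Pi.single_eq_of_ne hij]
    unfold CT
    rw [hRi, hgg, hE i hij, hD i hij]
    split_ifs with h
    · ring
    · rfl
  have hCTj : CT p R k j = 0 := by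
    unfold CT; rw [if_neg (by omega)]
  have hCT0 : ∀ i, CT p R' k i = if 2 ≤ R' i then
      (R' i : ℝ) * ((p i * EE p R' i k) ^ 2 - (p i ^ 2 * DD p R' i k) * z0) else 0 := by
    intro i
    unfold CT
    split_ifs with h
    · ring
    · rfl
  have hCT1 : ∀ i, CT p R' (k - 1) i = if 2 ≤ R' i then
      (R' i : ℝ) * ((p i * EE p R' i (k - 1)) ^ 2 - (p i ^ 2 * DD p R' i (k - 1)) * z1) else 0 := by
    intro i
    unfold CT
    split_ifs with h
    · ring
    · rfl
  rw [hgg]
  -- the three cases
  by_cases hz0p : z0 = 0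
  · -- level k of R' is empty
    have hterm : ∀ i, CT p R k i ≤ P ^ 2 * CT p R' (k - 1) i := by
      intro i
      by_cases hij : i = j
      · subst hij
        rw [hCTj, hCT1]
        have : ¬ 2 ≤ R' i := by omega
        rw [if_neg this]; simp
      · rw [hCT i hij, hCT1 i]
        split_ifs with h
        · have a1 : p i * EE p R' i k = 0 := by
            have b1 := pi_le h0 h1 R' h k
            have b2 := mul_nonneg (h0 i) (EE_nonneg h0 h1 R' i k)
            linarith [hz0p, hz0.symm ▸ b1]
          have a2 : p i ^ 2 * DD p R' i k = 0 := by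
            have b1 := r_le_pi h0 h1 R' h k
            have b2 := r_nonneg h0 h1 R' i k
            linarith
          rw [a1, a2, hz0p]
          apply le_of_eq
          ring
        · simp
    calc ∑ i, CT p R k i ≤ ∑ i, P ^ 2 * CT p R' (k - 1) i :=
          Finset.sum_le_sum (fun i _ => hterm i)
      _ = P ^ 2 * ∑ i, CT p R' (k - 1) i := by rw [Finset.mul_sum]
      _ ≤ P ^ 2 * ((1 / 2) * z1 ^ 2) := mul_le_mul_of_nonneg_left IH1 (by positivity)
      _ = _ := by rw [hz0p]; ring
  by_cases hz1p : z1 = 0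
  · -- level k-1 of R' is empty
    have hterm : ∀ i, CT p R k i ≤ Q ^ 2 * CT p R' k i := by
      intro i
      by_cases hij : i = j
      · subst hij
        rw [hCTj, hCT0]
        have : ¬ 2 ≤ R' i := by omega
        rw [if_neg this]; simp
      · rw [hCT i hij, hCT0 i]
        split_ifs with h
        · have a1 : p i * EE p R' i (k - 1) = 0 := by
            have b1 := pi_le h0 h1 R' h (k - 1)
            have b2 := mul_nonneg (h0 i) (EE_nonneg h0 h1 R' i (k - 1))
            linarith [hz1p, hz1.symm ▸ b1]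
          have a2 : p i ^ 2 * DD p R' i (k - 1) = 0 := by
            have b1 := r_le_pi h0 h1 R' h (k - 1)
            have b2 := r_nonneg h0 h1 R' i (k - 1)
            linarith
          rw [a1, a2, hz1p]
          apply le_of_eq
          ring
        · simp
    calc ∑ i, CT p R k i ≤ ∑ i, Q ^ 2 * CT p R' k i :=
          Finset.sum_le_sum (fun i _ => hterm i)
      _ = Q ^ 2 * ∑ i, CT p R' k i := by rw [Finset.mul_sum]
      _ ≤ Q ^ 2 * ((1 / 2) * z0 ^ 2) := mul_le_mul_of_nonneg_left IH0 (by positivity)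
      _ = _ := by rw [hz1p]; ring
  -- both positive
  have hz0pos : 0 < z0 := lt_of_le_of_ne hz0n (Ne.symm hz0p)
  have hz1pos : 0 < z1 := lt_of_le_of_ne hz1n (Ne.symm hz1p)
  set Z := Q * z0 + P * z1 with hZ
  have hZn : 0 ≤ Z := by positivity
  have hterm : ∀ i, (z0 * z1) * CT p R k i
      ≤ Z * (Q * z1 * CT p R' k i + P * z0 * CT p R' (k - 1) i) := by
    intro i
    by_cases hij : i = j
    · subst hij
      rw [hCTj, hCT0, hCT1]
      have : ¬ 2 ≤ R' i := by omega
      rw [if_neg this, if_neg this]; simp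
    · rw [hCT i hij, hCT0 i, hCT1 i]
      split_ifs with h
      · set X0 := p i * EE p R' i k
        set X1 := p i * EE p R' i (k - 1)
        set Y0 := p i ^ 2 * DD p R' i k
        set Y1 := p i ^ 2 * DD p R' i (k - 1)
        have hRn : (0 : ℝ) ≤ (R' i : ℝ) := by positivity
        have hcs : 0 ≤ P * Q * (z0 * X1 - z1 * X0) ^ 2 := by positivity
        have key : Z * (Q * z1 * ((R' i : ℝ) * (X0 ^ 2 - Y0 * z0))
              + P * z0 * ((R' i : ℝ) * (X1 ^ 2 - Y1 * z1)))
            - (z0 * z1) * ((R' i : ℝ) * ((Q * X0 + P * X1) ^ 2 - (Q * Y0 + P * Y1) * Z))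
            = (R' i : ℝ) * (P * Q * (z0 * X1 - z1 * X0) ^ 2) := by
          simp only [hZ]; ring
        have : 0 ≤ (R' i : ℝ) * (P * Q * (z0 * X1 - z1 * X0) ^ 2) := mul_nonneg hRn hcs
        linarith
      · simp
  have hprod : 0 < z0 * z1 := mul_pos hz0pos hz1pos
  have hsum : (z0 * z1) * ∑ i, CT p R k i ≤ (z0 * z1) * ((1 / 2) * Z ^ 2) := by
    calc (z0 * z1) * ∑ i, CT p R k i = ∑ i, (z0 * z1) * CT p R k i := by rw [Finset.mul_sum]
      _ ≤ ∑ i, Z * (Q * z1 * CT p R' k i + P * z0 * CT p R' (k - 1) i) :=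
          Finset.sum_le_sum (fun i _ => hterm i)
      _ = Z * (Q * z1 * ∑ i, CT p R' k i + P * z0 * ∑ i, CT p R' (k - 1) i) := by
          rw [← Finset.mul_sum, Finset.sum_add_distrib, ← Finset.mul_sum, ← Finset.mul_sum]
      _ ≤ Z * (Q * z1 * ((1 / 2) * z0 ^ 2) + P * z0 * ((1 / 2) * z1 ^ 2)) := by
          apply mul_le_mul_of_nonneg_left _ hZn
          apply add_le_add
          · exact mul_le_mul_of_nonneg_left IH0 (by positivity)
          · exact mul_le_mul_of_nonneg_left IH1 (by positivity)
      _ = (z0 * z1) * ((1 / 2) * Z ^ 2) := by simp only [hZ]; ring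
  exact le_of_mul_le_mul_left hsum hprod

/-- The covariance bound for all vectors and levels. -/
theorem lemC_all (R : ι → ℕ) (k : ℤ) : LemC p R k := by
  have key : ∀ n : ℕ, ∀ R : ι → ℕ, ∑ i, R i ≤ n → ∀ k : ℤ, LemC p R k := by
    intro n
    induction n with
    | zero =>
      intro R hR k
      have hz : ∀ i, R i = 0 := by
        intro i
        have := (Finset.sum_eq_zero_iff_of_nonneg (fun i _ => Nat.zero_le (R i))).1
          (by omega : ∑ i, R i = 0) i (Finset.mem_univ i)
        exact this
      apply lemC_step h0 h1 R (fun j => by rw [hz j]; norm_num) k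
      intro i hi
      rw [hz i] at hi
      omega
    | succ n ih =>
      intro R hR k
      by_cases hu : ∃ j, R j = 1
      · obtain ⟨j, hj⟩ := hu
        have hs : ∑ i, (R - ee j) i ≤ n := by
          have h2 : ∑ i, ((R - ee j) + ee j) i = ∑ i, (R - ee j) i + 1 := by
            simp only [Pi.add_apply, Finset.sum_add_distrib]
            congr 1
            simp [ee]
          rw [sub_add_cancel_vec R (by omega)] at h2
          omega
        exact lemC_unit h0 h1 R hj k (ih _ hs k) (ih _ hs (k - 1))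
      · have hR1 : ∀ j, R j ≠ 1 := fun j h => hu ⟨j, h⟩
        apply lemC_step h0 h1 R hR1 k
        intro i hi
        apply ih
        have h2 : ∑ l, ((R - ee i - ee i) + ee i + ee i) l = ∑ l, (R - ee i - ee i) l + 2 := by
          simp only [Pi.add_apply, Finset.sum_add_distrib]
          simp [ee]
        rw [← vec_two R hi] at h2
        omega
  exact key _ R le_rfl k

/-- The lower bound on `Q`, with no hypothesis but the absence of rows of size one. -/
theorem Q_bound (R : ι → ℕ) (hR : ∀ j, R j ≠ 1) (k : ℤ) :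
    ∑ i, (R i : ℝ) * p i ^ 3 * (EE p R i k * DD p R i k)
        - (1 / 2) * ∑ i, (R i : ℝ) * p i ^ 4 * DD p R i k ^ 2
      ≤ (k : ℝ) * gg p R k * ∑ i, (R i : ℝ) * p i ^ 2 * DD p R i k
        - ((k : ℝ) - 1) * ∑ i, (R i : ℝ) * p i ^ 2 * EE p R i k ^ 2 :=
  recursion_bound h0 h1 R hR k (fun i _ => lemC_all h0 h1 _ _)

end

end Vale.Agent.Lib.P328.PBinfCov
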