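import Vale.Agent.Lib.P328.PBinfCov.Step

/-!
The recursion and the covariance bound `∑ (π² - r) ≤ 1/2`.
-/

open Finset

namespace Vale.Agent.Lib.P328.PBinfCov

set_option linter.unusedSectionVars false
set_option linter.unusedVariables false

variable {ι : Type*} [Fintype ι] [DecidableEq ι]

theorem vec_ij (R : ι → ℕ) {i j : ι} (hij : i ≠ j) (hi : 2 ≤ R i) (hj : 1 ≤ R j) :
    R - ee i - ee i = (R - ee i - ee i - ee j) + ee j
    ∧ R - ee j = (R - ee i - ee i - ee j) + ee i + ee i
    ∧ R - ee i = (R - ee i - ee i - ee j) + ee i + ee j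
    ∧ R - ee i - ee j = (R - ee i - ee i - ee j) + ee i := by
  have hji : j ≠ i := hij.symm
  refine ⟨?_, ?_, ?_, ?_⟩ <;>
  · funext l
    simp only [Pi.add_apply, Pi.sub_apply, ee]
    by_cases h1 : l = i
    · subst h1
      simp [Pi.single_eq_of_ne hij]
      try omega
    · by_cases h2 : l = j
      · subst h2
        simp [Pi.single_eq_of_ne h1]
        try omega
      · simp [Pi.single_eq_of_ne h1, Pi.single_eq_of_ne h2]

theorem step_row (p : ι → ℝ) (R : ι → ℕ) {i : ι} (hi : 2 ≤ R i) (k : ℤ) :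
    DD p R i k * ((k : ℝ) * gg p R k) - EE p R i k * (((k : ℝ) - 1) * EE p R i k)
      = p i * EE p R i k * DD p R i k
        + ∑ j ∈ univ.erase i, (R j : ℝ) * p j *
            ((1 - p i) * (p i - p j) * Dt p (R - ee i - ee i - ee j) (k - 2)) := by
  have hE := euler p R k
  have hE1 := euler p (R - ee i) (k - 1)
  rw [← Finset.add_sum_erase _ _ (Finset.mem_univ i)] at hE hE1
  have e1 : k - 1 - 1 = k - 2 := by ring
  have hRi : ((R - ee i) i : ℝ) = (R i : ℝ) - 1 := by
    have : (R - ee i) i + 1 = R i := by simp [ee]; omega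
    have h2 : (((R - ee i) i + 1 : ℕ) : ℝ) = (R i : ℝ) := by rw [this]
    push_cast at h2
    linarith
  rw [hRi, e1] at hE1
  have hsum1 : ∑ x ∈ univ.erase i, (((R - ee i) x : ℕ) : ℝ) * p x * gg p (R - ee i - ee x) (k - 2)
      = ∑ x ∈ univ.erase i, (R x : ℝ) * p x * gg p (R - ee i - ee x) (k - 2) := by
    apply Finset.sum_congr rfl
    intro x hx
    have hxi : x ≠ i := Finset.ne_of_mem_erase hx
    simp [ee, Pi.single_eq_of_ne hxi]
  rw [hsum1] at hE1
  have hk1 : (((k - 1 : ℤ)) : ℝ) = (k : ℝ) - 1 := by push_cast; ring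
  rw [hk1] at hE1
  unfold EE DD
  rw [hE, hE1]
  -- now expand
  have hterm : ∀ j ∈ univ.erase i,
      gg p (R - ee i - ee i) (k - 2) * ((R j : ℝ) * p j * gg p (R - ee j) (k - 1))
        - gg p (R - ee i) (k - 1) * ((R j : ℝ) * p j * gg p (R - ee i - ee j) (k - 2))
      = (R j : ℝ) * p j *
            ((1 - p i) * (p i - p j) * Dt p (R - ee i - ee i - ee j) (k - 2)) := by
    intro j hj
    have hji : j ≠ i := Finset.ne_of_mem_erase hj
    by_cases hR0 : R j = 0
    · simp [hR0]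
    · obtain ⟨a1, a2, a3, a4⟩ := vec_ij R hji.symm hi (by omega : 1 ≤ R j)
      have := swap_id p (R - ee i - ee i - ee j) i j k
      simp only at this
      rw [← a1, ← a2, ← a3, ← a4] at this
      rw [← this]
      ring
  rw [← Finset.sum_congr rfl hterm, Finset.sum_sub_distrib, ← Finset.mul_sum, ← Finset.mul_sum]
  have e2 : (R - ee i - ee i) = (R - ee i - ee i) := rfl
  ring

/-- The summand of the covariance sum. -/
noncomputable def CT (p : ι → ℝ) (R : ι → ℕ) (k : ℤ) (i : ι) : ℝ :=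
  if 2 ≤ R i then (R i : ℝ) * p i ^ 2 * (EE p R i k ^ 2 - DD p R i k * gg p R k) else 0

/-- The covariance bound at one vector and level. -/
def LemC (p : ι → ℝ) (R : ι → ℕ) (k : ℤ) : Prop :=
  ∑ i, CT p R k i ≤ (1 / 2) * gg p R k ^ 2

section

variable {p : ι → ℝ} (h0 : ∀ i, 0 ≤ p i) (h1 : ∀ i, p i ≤ 1)
include h0 h1

theorem CT_nonneg (R : ι → ℕ) (k : ℤ) (i : ι) : 0 ≤ CT p R k i := by
  unfold CT
  split_ifs with h
  · rw [cov_form p R h k]
    have := Dt_nonneg h0 h1 (R - ee i - ee i) (k - 1)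
    positivity
  · exact le_rfl

theorem pair_bound (R : ι → ℕ) (hR : ∀ j, R j ≠ 1) (k : ℤ) (i j : ι) (hij : i ≠ j) :
    -((R i : ℝ) * (R j : ℝ) * p i ^ 4 * (p j ^ 2 * (1 - p j) ^ 2) *
          Dt p (R - ee i - ee i - ee j - ee j) (k - 3)
        + (R j : ℝ) * (R i : ℝ) * p j ^ 4 * (p i ^ 2 * (1 - p i) ^ 2) *
          Dt p (R - ee j - ee j - ee i - ee i) (k - 3))
    ≤ (R i : ℝ) * (R j : ℝ) * (p i ^ 2 * p j * (1 - p i) * (p i - p j)) *
          Dt p (R - ee i - ee i - ee j) (k - 2)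
        + (R j : ℝ) * (R i : ℝ) * (p j ^ 2 * p i * (1 - p j) * (p j - p i)) *
          Dt p (R - ee j - ee j - ee i) (k - 2) := by
  by_cases hi0 : R i = 0
  · simp [hi0]
  by_cases hj0 : R j = 0
  · simp [hj0]
  have hi2 : 2 ≤ R i := by have := hR i; omega
  have hj2 : 2 ≤ R j := by have := hR j; omega
  have hji : j ≠ i := hij.symm
  set V := R - ee i - ee i - ee j - ee j with hV
  have hV' : R - ee j - ee j - ee i - ee i = V := by
    funext l
    simp only [hV, Pi.sub_apply, ee]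
    by_cases h1 : l = i
    · subst h1
      simp [Pi.single_eq_of_ne hij]
    · by_cases h2 : l = j
      · subst h2
        simp [Pi.single_eq_of_ne h1]
      · simp [Pi.single_eq_of_ne h1, Pi.single_eq_of_ne h2]
  have a1 : R - ee i - ee i - ee j = V + ee j :=
    (sub_add_cancel_vec _ (by simp [ee, Pi.single_eq_of_ne hji]; omega)).symm
  have a2 : R - ee j - ee j - ee i = V + ee i := by
    rw [← hV']
    exact (sub_add_cancel_vec _ (by simp [ee, Pi.single_eq_of_ne hij]; omega)).symm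
  rw [hV', a1, a2]
  have hid := pair_id p V i j k
  have hDa := Dt_nonneg h0 h1 V (k - 2)
  have hDb := Dt_nonneg h0 h1 V (k - 3)
  set A := Dt p V (k - 2)
  set B := Dt p V (k - 3)
  set A' := Dt p (V + ee j) (k - 2)
  set B' := Dt p (V + ee i) (k - 2)
  have hp := h0 i
  have hr := h0 j
  have hq : 0 ≤ 1 - p i := by linarith [h1 i]
  have hs : 0 ≤ 1 - p j := by linarith [h1 j]
  have hRi : (0 : ℝ) ≤ (R i : ℝ) := by positivity
  have hRj : (0 : ℝ) ≤ (R j : ℝ) := by positivity
  have key : (R i : ℝ) * (R j : ℝ) * (p i ^ 2 * p j * (1 - p i) * (p i - p j)) * A'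
        + (R j : ℝ) * (R i : ℝ) * (p j ^ 2 * p i * (1 - p j) * (p j - p i)) * B'
      = (R i : ℝ) * (R j : ℝ) * (p i * p j * (p i - p j) ^ 2 *
        ((1 - p i) * (1 - p j) * A - p i * p j * B)) := by
    rw [← hid]; ring
  rw [key]
  have hsq : (p i - p j) ^ 2 ≤ (p i * (1 - p j)) ^ 2 + (p j * (1 - p i)) ^ 2 := by
    have : p i - p j = p i * (1 - p j) - p j * (1 - p i) := by ring
    rw [this]
    have : 0 ≤ (p i * (1 - p j)) * (p j * (1 - p i)) := by positivity
    nlinarith
  have hmain : p i ^ 2 * p j ^ 2 * (p i - p j) ^ 2 * B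
      ≤ p i ^ 2 * p j ^ 2 * ((p i * (1 - p j)) ^ 2 + (p j * (1 - p i)) ^ 2) * B := by
    apply mul_le_mul_of_nonneg_right _ hDb
    apply mul_le_mul_of_nonneg_left hsq
    positivity
  have hpos : 0 ≤ p i * p j * (p i - p j) ^ 2 * ((1 - p i) * (1 - p j) * A) := by positivity
  have hRR : 0 ≤ (R i : ℝ) * (R j : ℝ) := by positivity
  have : (R i : ℝ) * (R j : ℝ) * (p i * p j * (p i - p j) ^ 2 *
        ((1 - p i) * (1 - p j) * A - p i * p j * B))
      = (R i : ℝ) * (R j : ℝ) * (p i * p j * (p i - p j) ^ 2 * ((1 - p i) * (1 - p j) * A))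
        - (R i : ℝ) * (R j : ℝ) * (p i ^ 2 * p j ^ 2 * (p i - p j) ^ 2 * B) := by ring
  rw [this]
  have h5 := mul_le_mul_of_nonneg_left hmain hRR
  have h6 := mul_nonneg hRR hpos
  nlinarith

/-- The double sum is bounded below through the covariance bound at smaller vectors. -/
theorem double_sum_bound (R : ι → ℕ) (hR : ∀ j, R j ≠ 1) (k : ℤ)
    (IH : ∀ i, 2 ≤ R i → LemC p (R - ee i - ee i) (k - 2)) :
    -((1 / 2) * ∑ i, (R i : ℝ) * p i ^ 4 * DD p R i k ^ 2)
      ≤ ∑ i, ∑ j ∈ univ.erase i, (R i : ℝ) * p i ^ 2 * ((R j : ℝ) * p j *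
          ((1 - p i) * (p i - p j) * Dt p (R - ee i - ee i - ee j) (k - 2))) := by
  classical
  set T : ι → ι → ℝ := fun i j => if j = i then 0 else (R i : ℝ) * p i ^ 2 * ((R j : ℝ) * p j *
          ((1 - p i) * (p i - p j) * Dt p (R - ee i - ee i - ee j) (k - 2))) with hT
  set B : ι → ι → ℝ := fun i j => if j = i then 0 else
      (R i : ℝ) * (R j : ℝ) * p i ^ 4 * (p j ^ 2 * (1 - p j) ^ 2) *
          Dt p (R - ee i - ee i - ee j - ee j) (k - 3) with hB
  have hTs : ∀ i, ∑ j ∈ univ.erase i, (R i : ℝ) * p i ^ 2 * ((R j : ℝ) * p j *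
          ((1 - p i) * (p i - p j) * Dt p (R - ee i - ee i - ee j) (k - 2))) = ∑ j, T i j := by
    intro i
    rw [← Finset.add_sum_erase _ _ (Finset.mem_univ i)]
    have : T i i = 0 := by simp [hT]
    rw [this, zero_add]
    apply Finset.sum_congr rfl
    intro j hj
    have hji : j ≠ i := Finset.ne_of_mem_erase hj
    simp [hT, hji]
  have hsym : ∀ i j, -(B i j + B j i) ≤ T i j + T j i := by
    intro i j
    by_cases hij : i = j
    · subst hij
      simp [hT, hB]
    · have hji : j ≠ i := fun h => hij h.symm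
      have := pair_bound h0 h1 R hR k i j hij
      simp only [hT, hB, if_neg hij, if_neg hji]
      calc _ ≤ _ := this
        _ = _ := by ring
  have h2 : -(2 * ∑ i, ∑ j, B i j) ≤ 2 * ∑ i, ∑ j, T i j := by
    have s1 : ∑ i, ∑ j, T j i = ∑ i, ∑ j, T i j := Finset.sum_comm
    have s2 : ∑ i, ∑ j, B j i = ∑ i, ∑ j, B i j := Finset.sum_comm
    have : ∑ i, ∑ j, (-(B i j + B j i)) ≤ ∑ i, ∑ j, (T i j + T j i) :=
      Finset.sum_le_sum (fun i _ => Finset.sum_le_sum (fun j _ => hsym i j))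
    simp only [Finset.sum_add_distrib, Finset.sum_neg_distrib] at this
    rw [s1, s2] at this
    linarith
  have hBi : ∀ i, ∑ j, B i j ≤ (1 / 2) * ((R i : ℝ) * p i ^ 4 * DD p R i k ^ 2) := by
    intro i
    by_cases hi0 : R i = 0
    · simp [hB, hi0]
    have hi2 : 2 ≤ R i := by have := hR i; omega
    have hLem := IH i hi2
    unfold LemC at hLem
    have e1 : k - 2 - 1 = k - 3 := by ring
    set Y := R - ee i - ee i with hY
    have hgg : gg p Y (k - 2) = DD p R i k := rfl
    rw [hgg] at hLem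
    have hterm : ∀ j, B i j ≤ (R i : ℝ) * p i ^ 4 * CT p Y (k - 2) j := by
      intro j
      by_cases hji : j = i
      · subst hji
        simp only [hB, if_true]
        have := CT_nonneg h0 h1 Y (k - 2) j
        have hpi := h0 j
        positivity
      · simp only [hB, if_neg hji]
        by_cases hj0 : R j = 0
        · simp only [hj0]
          have := CT_nonneg h0 h1 Y (k - 2) j
          have hpi := h0 i
          simp only [Nat.cast_zero, mul_zero, zero_mul]
          positivity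
        · have hj2 : 2 ≤ R j := by have := hR j; omega
          have hYj : Y j = R j := by simp [hY, ee, Pi.single_eq_of_ne hji]
          have hY2 : 2 ≤ Y j := by omega
          unfold CT
          rw [if_pos hY2, cov_form p Y hY2 (k - 2), e1, hYj]
          apply le_of_eq
          ring
    calc ∑ j, B i j ≤ ∑ j, (R i : ℝ) * p i ^ 4 * CT p Y (k - 2) j :=
          Finset.sum_le_sum (fun j _ => hterm j)
      _ = (R i : ℝ) * p i ^ 4 * ∑ j, CT p Y (k - 2) j := by rw [Finset.mul_sum]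
      _ ≤ (R i : ℝ) * p i ^ 4 * ((1 / 2) * DD p R i k ^ 2) := by
          apply mul_le_mul_of_nonneg_left hLem
          have hpi := h0 i
          positivity
      _ = _ := by ring
  have h3 : ∑ i, ∑ j, B i j ≤ (1 / 2) * ∑ i, (R i : ℝ) * p i ^ 4 * DD p R i k ^ 2 := by
    rw [Finset.mul_sum]
    exact Finset.sum_le_sum (fun i _ => hBi i)
  rw [Finset.sum_congr rfl (fun i _ => hTs i)]
  linarith

/-- The lower bound on `Q` (helper41's identity plus the covariance bound). -/
theorem recursion_bound (R : ι → ℕ) (hR : ∀ j, R j ≠ 1) (k : ℤ)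
    (IH : ∀ i, 2 ≤ R i → LemC p (R - ee i - ee i) (k - 2)) :
    ∑ i, (R i : ℝ) * p i ^ 3 * (EE p R i k * DD p R i k)
        - (1 / 2) * ∑ i, (R i : ℝ) * p i ^ 4 * DD p R i k ^ 2
      ≤ (k : ℝ) * gg p R k * ∑ i, (R i : ℝ) * p i ^ 2 * DD p R i k
        - ((k : ℝ) - 1) * ∑ i, (R i : ℝ) * p i ^ 2 * EE p R i k ^ 2 := by
  have hd := double_sum_bound h0 h1 R hR k IH
  have hsum : (k : ℝ) * gg p R k * ∑ i, (R i : ℝ) * p i ^ 2 * DD p R i k
        - ((k : ℝ) - 1) * ∑ i, (R i : ℝ) * p i ^ 2 * EE p R i k ^ 2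
      = ∑ i, (R i : ℝ) * p i ^ 3 * (EE p R i k * DD p R i k)
        + ∑ i, ∑ j ∈ univ.erase i, (R i : ℝ) * p i ^ 2 * ((R j : ℝ) * p j *
          ((1 - p i) * (p i - p j) * Dt p (R - ee i - ee i - ee j) (k - 2))) := by
    rw [Finset.mul_sum, Finset.mul_sum, ← Finset.sum_sub_distrib, ← Finset.sum_add_distrib]
    apply Finset.sum_congr rfl
    intro i _
    by_cases hi0 : R i = 0
    · simp [hi0]
    have hi2 : 2 ≤ R i := by have := hR i; omega
    have hs := step_row p R hi2 k
    rw [← Finset.mul_sum]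
    have : (k : ℝ) * gg p R k * ((R i : ℝ) * p i ^ 2 * DD p R i k)
        - ((k : ℝ) - 1) * ((R i : ℝ) * p i ^ 2 * EE p R i k ^ 2)
        = (R i : ℝ) * p i ^ 2 * (DD p R i k * ((k : ℝ) * gg p R k)
            - EE p R i k * (((k : ℝ) - 1) * EE p R i k)) := by ring
    rw [this, hs]
    ring
  rw [hsum]
  linarith

/-- The covariance bound when there is no row of size one. -/
theorem lemC_step (R : ι → ℕ) (hR : ∀ j, R j ≠ 1) (k : ℤ)
    (IH : ∀ i, 2 ≤ R i → LemC p (R - ee i - ee i) (k - 2)) : LemC p R k := by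
  unfold LemC
  have hCT : ∀ i, CT p R k i
      = (R i : ℝ) * p i ^ 2 * (EE p R i k ^ 2 - DD p R i k * gg p R k) := by
    intro i
    unfold CT
    split_ifs with h
    · rfl
    · have : R i = 0 := by have := hR i; omega
      simp [this]
  by_cases hk : k ≤ 0
  · have hz : ∀ i, CT p R k i = 0 := by
      intro i
      rw [hCT]
      have a1 : EE p R i k = 0 := gg_neg _ _ (by omega)
      have a2 : DD p R i k = 0 := gg_neg _ _ (by omega)
      rw [a1, a2]
      ring
    rw [Finset.sum_eq_zero (fun i _ => hz i)]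
    positivity
  have hkpos : (0 : ℝ) < (k : ℝ) := by
    have : 0 < k := by omega
    exact_mod_cast this
  have hrec := recursion_bound h0 h1 R hR k IH
  have hE := euler p R k
  set f := gg p R k with hf
  -- bound k * sum
  have hmain : (k : ℝ) * ∑ i, CT p R k i ≤ (k : ℝ) * ((1 / 2) * f ^ 2) := by
    have e1 : (k : ℝ) * ∑ i, CT p R k i
        = ∑ i, (R i : ℝ) * p i ^ 2 * EE p R i k ^ 2
          - ((k : ℝ) * f * ∑ i, (R i : ℝ) * p i ^ 2 * DD p R i k
            - ((k : ℝ) - 1) * ∑ i, (R i : ℝ) * p i ^ 2 * EE p R i k ^ 2) := by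
      rw [Finset.sum_congr rfl (fun i _ => hCT i), Finset.mul_sum, Finset.mul_sum, Finset.mul_sum,
        ← Finset.sum_sub_distrib, ← Finset.sum_sub_distrib]
      apply Finset.sum_congr rfl
      intro i _
      ring
    rw [e1]
    have e2 : ∑ i, (R i : ℝ) * p i ^ 2 * EE p R i k ^ 2
          - ∑ i, (R i : ℝ) * p i ^ 3 * (EE p R i k * DD p R i k)
          + (1 / 2) * ∑ i, (R i : ℝ) * p i ^ 4 * DD p R i k ^ 2
        ≤ (1 / 2) * f * ∑ i, (R i : ℝ) * (p i * EE p R i k) := by
      rw [Finset.mul_sum, Finset.mul_sum, ← Finset.sum_sub_distrib, ← Finset.sum_add_distrib]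
      apply Finset.sum_le_sum
      intro i _
      by_cases hi0 : R i = 0
      · simp [hi0]
      have hi2 : 2 ≤ R i := by have := hR i; omega
      have hb := term_bound h0 h1 R hi2 k
      have hRi : (0 : ℝ) ≤ (R i : ℝ) := by positivity
      have := mul_le_mul_of_nonneg_left hb hRi
      calc _ = (R i : ℝ) * ((p i * EE p R i k) ^ 2
              - (p i * EE p R i k) * (p i ^ 2 * DD p R i k)
              + (1 / 2) * (p i ^ 2 * DD p R i k) ^ 2) := by ring
        _ ≤ _ := this
        _ = _ := by ring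
    have e3 : ∑ i, (R i : ℝ) * (p i * EE p R i k) = (k : ℝ) * f := by
      rw [hE]
      apply Finset.sum_congr rfl
      intro i _
      unfold EE
      ring
    rw [e3] at e2
    nlinarith
  exact le_of_mul_le_mul_left hmain hkpos

end

end Vale.Agent.Lib.P328.PBinfCov
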