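import Vale.Agent.Lib.P328.PBinfCov.Basic

/-!
The one-row expansions, the swap identity and the recursion for the covariance sum.
-/

open Finset

namespace Vale.Agent.Lib.P328.PBinfCov

set_option linter.unusedSectionVars false

variable {ι : Type*} [Fintype ι] [DecidableEq ι]

/-- `P(S minus one trial of row i = k-1)`. -/
noncomputable def EE (p : ι → ℝ) (R : ι → ℕ) (i : ι) (k : ℤ) : ℝ := gg p (R - ee i) (k - 1)

/-- `P(S minus two trials of row i = k-2)`. -/
noncomputable def DD (p : ι → ℝ) (R : ι → ℕ) (i : ι) (k : ℤ) : ℝ := gg p (R - ee i - ee i) (k - 2)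

theorem vec_two (R : ι → ℕ) {i : ι} (hi : 2 ≤ R i) :
    R = (R - ee i - ee i) + ee i + ee i := by
  funext l
  simp only [Pi.add_apply, Pi.sub_apply, ee]
  by_cases h1 : l = i
  · subst h1
    simp; omega
  · simp [Pi.single_eq_of_ne h1]

theorem vec_one (R : ι → ℕ) {i : ι} (hi : 2 ≤ R i) :
    R - ee i = (R - ee i - ee i) + ee i :=
  (sub_add_cancel_vec (R - ee i) (by simp [ee]; omega)).symm

/-- Expansion of the three quantities of row `i` over the remaining rows. -/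
theorem row_expand (p : ι → ℝ) (R : ι → ℕ) {i : ι} (hi : 2 ≤ R i) (k : ℤ) :
    let a := gg p (R - ee i - ee i)
    gg p R k = (1 - p i) ^ 2 * a k + 2 * p i * (1 - p i) * a (k - 1) + p i ^ 2 * a (k - 2)
    ∧ EE p R i k = (1 - p i) * a (k - 1) + p i * a (k - 2)
    ∧ DD p R i k = a (k - 2) := by
  intro a
  refine ⟨?_, ?_, rfl⟩
  · conv_lhs => rw [vec_two R hi]
    rw [gg_add_single, gg_add_single, gg_add_single]
    have e1 : k - 1 - 1 = k - 2 := by ring
    rw [e1]
    ring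
  · unfold EE
    rw [vec_one R hi, gg_add_single]
    have e1 : k - 1 - 1 = k - 2 := by ring
    rw [e1]

/-- The conditional covariance in Newton form. -/
theorem cov_form (p : ι → ℝ) (R : ι → ℕ) {i : ι} (hi : 2 ≤ R i) (k : ℤ) :
    EE p R i k ^ 2 - DD p R i k * gg p R k
      = (1 - p i) ^ 2 * Dt p (R - ee i - ee i) (k - 1) := by
  obtain ⟨h1, h2, h3⟩ := row_expand p R hi k
  rw [h1, h2, h3]
  unfold Dt
  have e1 : k - 1 + 1 = k := by ring
  have e2 : k - 1 - 1 = k - 2 := by ring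
  rw [e1, e2]
  ring

section bounds

variable {p : ι → ℝ} (h0 : ∀ i, 0 ≤ p i) (h1 : ∀ i, p i ≤ 1)
include h0 h1

theorem r_nonneg (R : ι → ℕ) (i : ι) (k : ℤ) : 0 ≤ p i ^ 2 * DD p R i k := by
  have := gg_nonneg h0 h1 (R - ee i - ee i) (k - 2)
  unfold DD
  positivity

theorem EE_nonneg (R : ι → ℕ) (i : ι) (k : ℤ) : 0 ≤ EE p R i k :=
  gg_nonneg h0 h1 _ _

theorem r_le_pi (R : ι → ℕ) {i : ι} (hi : 2 ≤ R i) (k : ℤ) :
    p i ^ 2 * DD p R i k ≤ p i * EE p R i k := by
  obtain ⟨_, h2, h3⟩ := row_expand p R hi k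
  rw [h2, h3]
  have a1 := gg_nonneg h0 h1 (R - ee i - ee i) (k - 1)
  have hp := h0 i
  have hq : 0 ≤ 1 - p i := by linarith [h1 i]
  have : 0 ≤ p i * (1 - p i) * gg p (R - ee i - ee i) (k - 1) := by positivity
  nlinarith

theorem two_pi_le (R : ι → ℕ) {i : ι} (hi : 2 ≤ R i) (k : ℤ) :
    2 * (p i * EE p R i k) - p i ^ 2 * DD p R i k ≤ gg p R k := by
  obtain ⟨h1', h2, h3⟩ := row_expand p R hi k
  rw [h1', h2, h3]
  have a1 := gg_nonneg h0 h1 (R - ee i - ee i) k
  have : 0 ≤ (1 - p i) ^ 2 * gg p (R - ee i - ee i) k := by positivity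
  nlinarith

theorem pi_le (R : ι → ℕ) {i : ι} (hi : 2 ≤ R i) (k : ℤ) :
    p i * EE p R i k ≤ gg p R k := by
  have a1 := two_pi_le h0 h1 R hi k
  have a2 := r_le_pi h0 h1 R hi k
  linarith

/-- The pointwise inequality that closes the recursion. -/
theorem term_bound (R : ι → ℕ) {i : ι} (hi : 2 ≤ R i) (k : ℤ) :
    (p i * EE p R i k) ^ 2 - (p i * EE p R i k) * (p i ^ 2 * DD p R i k)
        + (1 / 2) * (p i ^ 2 * DD p R i k) ^ 2
      ≤ (1 / 2) * gg p R k * (p i * EE p R i k) := by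
  have a0 := r_nonneg h0 h1 R i k
  have a1 := r_le_pi h0 h1 R hi k
  have a2 := two_pi_le h0 h1 R hi k
  set P := p i * EE p R i k
  set r := p i ^ 2 * DD p R i k
  set f := gg p R k
  have hP : 0 ≤ P := le_trans a0 a1
  have h3 : 0 ≤ (f - (2 * P - r)) * P := mul_nonneg (by linarith) hP
  have h4 : 0 ≤ r * (P - r) := mul_nonneg a0 (by linarith)
  nlinarith

end bounds

/-- The swap identity. -/
theorem swap_id (p : ι → ℝ) (W : ι → ℕ) (i j : ι) (k : ℤ) :
    let a := gg p W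
    let D := gg p (W + ee j) (k - 2)
    let Ej := gg p (W + ee i + ee i) (k - 1)
    let Ei := gg p (W + ee i + ee j) (k - 1)
    let M := gg p (W + ee i) (k - 2)
    D * Ej - Ei * M = (1 - p i) * (p i - p j) * Dt p W (k - 2) := by
  intro a D Ej Ei M
  simp only [D, Ej, Ei, M, gg_add_single]
  unfold Dt
  have e1 : k - 2 + 1 = k - 1 := by ring
  have e2 : k - 2 - 1 = k - 3 := by ring
  have e3 : k - 1 - 1 = k - 2 := by ring
  have e4 : k - 1 - 1 - 1 = k - 3 := by ring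
  simp only [e1, e2, e3, e4]
  ring

/-- The symmetrised pair term. -/
theorem pair_id (p : ι → ℝ) (V : ι → ℕ) (i j : ι) (k : ℤ) :
    p i ^ 2 * p j * (1 - p i) * (p i - p j) * Dt p (V + ee j) (k - 2)
      + p j ^ 2 * p i * (1 - p j) * (p j - p i) * Dt p (V + ee i) (k - 2)
    = p i * p j * (p i - p j) ^ 2 *
        ((1 - p i) * (1 - p j) * Dt p V (k - 2) - p i * p j * Dt p V (k - 3)) := by
  unfold Dt
  simp only [gg_add_single]
  have e1 : k - 2 + 1 = k - 1 := by ring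
  have e2 : k - 2 - 1 = k - 3 := by ring
  have e3 : k - 3 + 1 = k - 2 := by ring
  have e4 : k - 3 - 1 = k - 4 := by ring
  have e5 : k - 1 - 1 = k - 2 := by ring
  simp only [e1, e2, e3, e4, e5]
  ring

end Vale.Agent.Lib.P328.PBinfCov
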