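import Vale.Agent.Lib.P328.PBinfCov.Mix

/-!
Single crossing and the bound `X ≥ X₁ / 2` at mean `k`.
-/

open Finset

namespace Vale.Agent.Lib.P328.PBinfCov

set_option linter.unusedSectionVars false
set_option linter.unusedVariables false

variable {ι : Type*} [Fintype ι] [DecidableEq ι]

/-- A Chebyshev sum inequality for a single crossing sequence. -/
theorem cheb_cross (R d w : ι → ℝ) (hR : ∀ i, 0 ≤ R i) (hsum : ∑ i, R i * d i = 0)
    (hcross : ∀ i j, 0 < R i → 0 < R j → 0 < d i → d j < 0 → w j ≤ w i) :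
    0 ≤ ∑ i, R i * w i * d i := by
  classical
  set N := univ.filter (fun j => 0 < R j ∧ d j < 0) with hN
  by_cases hne : N.Nonempty
  · obtain ⟨j0, hj0, hmax⟩ := Finset.exists_max_image N w hne
    have hj0' : 0 < R j0 ∧ d j0 < 0 := by simpa [hN] using hj0
    have e : ∑ i, R i * w i * d i = ∑ i, R i * (w i - w j0) * d i := by
      have : ∑ i, R i * (w i - w j0) * d i = ∑ i, R i * w i * d i - w j0 * ∑ i, R i * d i := by
        rw [Finset.mul_sum, ← Finset.sum_sub_distrib]
        apply Finset.sum_congr rfl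
        intro i _
        ring
      rw [this, hsum]
      ring
    rw [e]
    apply Finset.sum_nonneg
    intro i _
    rcases (hR i).eq_or_lt with h | h
    · rw [← h]; simp
    · rcases lt_trichotomy (d i) 0 with hd | hd | hd
      · have hi : i ∈ N := by simp [hN, h, hd]
        have := hmax i hi
        have h2 : 0 ≤ (w i - w j0) * d i :=
          mul_nonneg_of_nonpos_of_nonpos (by linarith) hd.le
        have := mul_nonneg h.le h2
        calc 0 ≤ _ := this
          _ = _ := by ring
      · rw [hd]; simp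
      · have := hcross i j0 h hj0'.1 hd hj0'.2
        have h2 : 0 ≤ (w i - w j0) * d i := mul_nonneg (by linarith) hd.le
        have := mul_nonneg h.le h2
        calc 0 ≤ _ := this
          _ = _ := by ring
  · -- no negative part
    have hnn : ∀ i, 0 ≤ R i * d i := by
      intro i
      rcases (hR i).eq_or_lt with h | h
      · rw [← h]; simp
      · by_contra hcon
        have hd : d i < 0 := by
          by_contra h3
          exact hcon (mul_nonneg h.le (not_lt.mp h3))
        exact hne ⟨i, by simp [hN, h, hd]⟩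
    have hz : ∀ i, R i * d i = 0 := by
      intro i
      exact (Finset.sum_eq_zero_iff_of_nonneg (fun i _ => hnn i)).1 hsum i (Finset.mem_univ i)
    apply le_of_eq
    symm
    apply Finset.sum_eq_zero
    intro i _
    calc R i * w i * d i = w i * (R i * d i) := by ring
      _ = 0 := by rw [hz i]; ring

section

variable {p : ι → ℝ} (h0 : ∀ i, 0 ≤ p i) (h1 : ∀ i, p i ≤ 1)
include h0 h1

/-- Two rows: the ratio is monotone in the probability. -/
theorem ratio_swap (R : ι → ℕ) {i j : ι} (hij : i ≠ j) (hi : 1 ≤ R i) (hj : 1 ≤ R j) (k : ℤ) :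
    gg p (R - ee i) (k - 1) * gg p (R - ee j) k - gg p (R - ee j) (k - 1) * gg p (R - ee i) k
      = (p i - p j) * Dt p (R - ee i - ee j) (k - 1) := by
  have hji : j ≠ i := hij.symm
  set U := R - ee i - ee j with hU
  have a1 : R - ee i = U + ee j :=
    (sub_add_cancel_vec _ (by simp [ee, Pi.single_eq_of_ne hji]; omega)).symm
  have a2 : R - ee j = U + ee i := by
    have : U = R - ee j - ee i := by
      funext l
      simp only [hU, Pi.sub_apply, ee]
      omega
    rw [this]
    exact (sub_add_cancel_vec _ (by simp [ee, Pi.single_eq_of_ne hij]; omega)).symm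
  rw [a1, a2]
  simp only [gg_add_single]
  unfold Dt
  have e1 : k - 1 + 1 = k := by ring
  rw [e1]
  ring

/-- The crossing property: if `π_i > p_i` and `π_j < p_j` then `p_j ≤ p_i`. -/
theorem cross_order (R : ι → ℕ) {i j : ι} (hij : i ≠ j) (hi : 1 ≤ R i) (hj : 1 ≤ R j) (k : ℤ)
    (hdi : 0 < p i * (gg p (R - ee i) (k - 1) - gg p R k))
    (hdj : p j * (gg p (R - ee j) (k - 1) - gg p R k) < 0) : p j ≤ p i := by
  by_contra hcon
  have hlt : p i < p j := not_le.mp hcon
  have hqi : 0 < 1 - p i := by linarith [h1 j]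
  have hpi : 0 < p i := by
    by_contra h
    have : p i = 0 := le_antisymm (not_lt.mp h) (h0 i)
    rw [this] at hdi
    simp at hdi
  have hpj : 0 < p j := lt_of_le_of_lt (h0 i) hlt
  -- decompositions
  have fi : gg p R k = (1 - p i) * gg p (R - ee i) k + p i * gg p (R - ee i) (k - 1) := by
    conv_lhs => rw [← sub_add_cancel_vec R hi]
    rw [gg_add_single]
  have fj : gg p R k = (1 - p j) * gg p (R - ee j) k + p j * gg p (R - ee j) (k - 1) := by
    conv_lhs => rw [← sub_add_cancel_vec R hj]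
    rw [gg_add_single]
  set Ei := gg p (R - ee i) (k - 1)
  set Hi := gg p (R - ee i) k
  set Ej := gg p (R - ee j) (k - 1)
  set Hj := gg p (R - ee j) k
  have hEi : 0 ≤ Ei := gg_nonneg h0 h1 _ _
  have hHi : 0 ≤ Hi := gg_nonneg h0 h1 _ _
  have hEj : 0 ≤ Ej := gg_nonneg h0 h1 _ _
  have hHj : 0 ≤ Hj := gg_nonneg h0 h1 _ _
  have h3 : Hi < Ei := by
    have : 0 < Ei - gg p R k := by
      by_contra h
      have := mul_nonpos_of_nonneg_of_nonpos hpi.le (not_lt.mp h)
      linarith
    rw [fi] at this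
    have h4 : 0 < (1 - p i) * (Ei - Hi) := by nlinarith
    by_contra h5
    have := mul_nonpos_of_nonneg_of_nonpos hqi.le (by linarith : Ei - Hi ≤ 0)
    linarith
  have h4 : Ej < Hj := by
    have : Ej - gg p R k < 0 := by
      by_contra h
      have := mul_nonneg hpj.le (not_lt.mp h)
      linarith
    rw [fj] at this
    have h5 : (1 - p j) * (Ej - Hj) < 0 := by nlinarith
    by_contra h6
    have hqj : 0 ≤ 1 - p j := by linarith [h1 j]
    have := mul_nonneg hqj (by linarith : 0 ≤ Ej - Hj)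
    linarith
  have hsw := ratio_swap h0 h1 R hij hi hj k
  have hD := Dt_nonneg h0 h1 (R - ee i - ee j) (k - 1)
  have h5 : Ei * Hj - Ej * Hi ≤ 0 := by
    have : (p i - p j) * Dt p (R - ee i - ee j) (k - 1) ≤ 0 :=
      mul_nonpos_of_nonpos_of_nonneg (by linarith) hD
    linarith
  have hHjpos : 0 < Hj := lt_of_le_of_lt hEj h4
  have h6 : Hi * Hj < Ei * Hj := mul_lt_mul_of_pos_right h3 hHjpos
  have h7 : Ej * Hi ≤ Hj * Hi := mul_le_mul_of_nonneg_right h4.le hHi
  nlinarith

/-- `π` is monotone in the probability of the row. -/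
theorem pi_mono (R : ι → ℕ) {i j : ι} (hij : i ≠ j) (hi : 1 ≤ R i) (hj : 1 ≤ R j) (k : ℤ)
    (hp : p j ≤ p i) : p j * EE p R j k ≤ p i * EE p R i k := by
  have hji : j ≠ i := hij.symm
  set U := R - ee i - ee j with hU
  have a1 : R - ee i = U + ee j :=
    (sub_add_cancel_vec _ (by simp [ee, Pi.single_eq_of_ne hji]; omega)).symm
  have a2 : R - ee j = U + ee i := by
    have : U = R - ee j - ee i := by
      funext l
      simp only [hU, Pi.sub_apply, ee]
      omega
    rw [this]
    exact (sub_add_cancel_vec _ (by simp [ee, Pi.single_eq_of_ne hij]; omega)).symm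
  unfold EE
  rw [a1, a2]
  simp only [gg_add_single]
  have h3 := gg_nonneg h0 h1 U (k - 1)
  have : p i * ((1 - p j) * gg p U (k - 1) + p j * gg p U (k - 1 - 1))
      - p j * ((1 - p i) * gg p U (k - 1) + p i * gg p U (k - 1 - 1))
      = (p i - p j) * gg p U (k - 1) := by ring
  have h4 := mul_nonneg (by linarith : 0 ≤ p i - p j) h3
  linarith

/-- `r` is monotone in the probability of the row. -/
theorem r_mono (R : ι → ℕ) {i j : ι} (hij : i ≠ j) (hi : 2 ≤ R i) (hj : 2 ≤ R j) (k : ℤ)
    (hp : p j ≤ p i) : p j ^ 2 * DD p R j k ≤ p i ^ 2 * DD p R i k := by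
  have hji : j ≠ i := hij.symm
  set V := R - ee i - ee i - ee j - ee j with hV
  have a1 : R - ee i - ee i = V + ee j + ee j := by
    funext l
    simp only [hV, Pi.add_apply, Pi.sub_apply, ee]
    by_cases h1' : l = i
    · subst h1'
      simp [Pi.single_eq_of_ne hij]
    · by_cases h2 : l = j
      · subst h2
        simp [Pi.single_eq_of_ne h1']
        omega
      · simp [Pi.single_eq_of_ne h1', Pi.single_eq_of_ne h2]
  have a2 : R - ee j - ee j = V + ee i + ee i := by
    funext l
    simp only [hV, Pi.add_apply, Pi.sub_apply, ee]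
    by_cases h1' : l = i
    · subst h1'
      simp [Pi.single_eq_of_ne hij]
      omega
    · by_cases h2 : l = j
      · subst h2
        simp [Pi.single_eq_of_ne h1']
      · simp [Pi.single_eq_of_ne h1', Pi.single_eq_of_ne h2]
  unfold DD
  rw [a1, a2]
  simp only [gg_add_single]
  have h3 := gg_nonneg h0 h1 V (k - 2)
  have h4 := gg_nonneg h0 h1 V (k - 2 - 1)
  have hpi := h0 i
  have hpj := h0 j
  have hqi : 0 ≤ 1 - p i := by linarith [h1 i]
  have hqj : 0 ≤ 1 - p j := by linarith [h1 j]
  have key : p i ^ 2 * ((1 - p j) * ((1 - p j) * gg p V (k - 2) + p j * gg p V (k - 2 - 1))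
          + p j * ((1 - p j) * gg p V (k - 2 - 1) + p j * gg p V (k - 2 - 1 - 1)))
      - p j ^ 2 * ((1 - p i) * ((1 - p i) * gg p V (k - 2) + p i * gg p V (k - 2 - 1))
          + p i * ((1 - p i) * gg p V (k - 2 - 1) + p i * gg p V (k - 2 - 1 - 1)))
      = (p i - p j) * ((p i * (1 - p j) + p j * (1 - p i)) * gg p V (k - 2)
          + 2 * p i * p j * gg p V (k - 2 - 1)) := by ring
  have : 0 ≤ (p i - p j) * ((p i * (1 - p j) + p j * (1 - p i)) * gg p V (k - 2)
          + 2 * p i * p j * gg p V (k - 2 - 1)) :=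
    mul_nonneg (by linarith) (by positivity)
  linarith

/-- The bound `X ≥ X₁/2` at mean `k`, for vectors without rows of size one. `k` is a positive level
and the sum of `R i * p i` equals `k`. -/
theorem X_half (R : ι → ℕ) (hR : ∀ j, R j ≠ 1) (k : ℤ) (hk : 1 ≤ k)
    (hmean : ∑ i, (R i : ℝ) * p i = (k : ℝ)) :
    (1 / 2) * ∑ i, (R i : ℝ) * p i ^ 3 * DD p R i k
      ≤ (k : ℝ) * ∑ i, (R i : ℝ) * p i ^ 2 * DD p R i k
        - ((k : ℝ) - 1) * ∑ i, (R i : ℝ) * p i ^ 2 * EE p R i k := by
  set f := gg p R k with hf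
  have hfn : 0 ≤ f := gg_nonneg h0 h1 _ _
  have hk1 : (1 : ℝ) ≤ (k : ℝ) := by exact_mod_cast hk
  rcases hfn.eq_or_lt with hf0 | hfpos
  · -- the trivial case
    have hz : ∀ i, (R i : ℝ) * (p i * EE p R i k) = 0 := by
      intro i
      by_cases hi0 : R i = 0
      · simp [hi0]
      have hi2 : 2 ≤ R i := by have := hR i; omega
      have a1 := pi_le h0 h1 R hi2 k
      have a2 := mul_nonneg (h0 i) (EE_nonneg h0 h1 R i k)
      have : p i * EE p R i k = 0 := by linarith
      rw [this]; ring
    have hz2 : ∀ i, (R i : ℝ) * (p i ^ 2 * DD p R i k) = 0 := by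
      intro i
      by_cases hi0 : R i = 0
      · simp [hi0]
      have hi2 : 2 ≤ R i := by have := hR i; omega
      have a1 := r_le_pi h0 h1 R hi2 k
      have a2 := pi_le h0 h1 R hi2 k
      have a3 := r_nonneg h0 h1 R i k
      have : p i ^ 2 * DD p R i k = 0 := by linarith
      rw [this]; ring
    have s1 : ∑ i, (R i : ℝ) * p i ^ 3 * DD p R i k = 0 := by
      apply Finset.sum_eq_zero
      intro i _
      calc _ = p i * ((R i : ℝ) * (p i ^ 2 * DD p R i k)) := by ring
        _ = 0 := by rw [hz2 i]; ring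
    have s2 : ∑ i, (R i : ℝ) * p i ^ 2 * DD p R i k = 0 := by
      apply Finset.sum_eq_zero
      intro i _
      calc _ = ((R i : ℝ) * (p i ^ 2 * DD p R i k)) := by ring
        _ = 0 := hz2 i
    have s3 : ∑ i, (R i : ℝ) * p i ^ 2 * EE p R i k = 0 := by
      apply Finset.sum_eq_zero
      intro i _
      calc _ = p i * ((R i : ℝ) * (p i * EE p R i k)) := by ring
        _ = 0 := by rw [hz i]; ring
    rw [s1, s2, s3]
    simp
  -- main case
  have hQ := Q_bound h0 h1 R hR k
  rw [← hf] at hQ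
  -- weights and crossing sequence
  set d : ι → ℝ := fun i => p i * (EE p R i k - f) with hd
  set w : ι → ℝ := fun i =>
    (1 / 2) * (p i ^ 2 * DD p R i k) + ((k : ℝ) - 1) * (p i * EE p R i k) with hw
  have hsum : ∑ i, (R i : ℝ) * d i = 0 := by
    have e := euler p R k
    have : ∑ i, (R i : ℝ) * d i = (k : ℝ) * f - f * ∑ i, (R i : ℝ) * p i := by
      rw [hf, e, Finset.mul_sum, ← Finset.sum_sub_distrib]
      apply Finset.sum_congr rfl
      intro i _
      simp only [hd, EE]
      rw [← hf]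
      ring
    rw [this, hmean]
    ring
  have hcheb : 0 ≤ ∑ i, (R i : ℝ) * w i * d i := by
    apply cheb_cross (fun i => (R i : ℝ)) d w (fun i => by positivity) hsum
    intro i j hRi hRj hdi hdj
    have hi0 : R i ≠ 0 := by
      intro h; simp [h] at hRi
    have hj0 : R j ≠ 0 := by
      intro h; simp [h] at hRj
    have hi2 : 2 ≤ R i := by have := hR i; omega
    have hj2 : 2 ≤ R j := by have := hR j; omega
    have hij : i ≠ j := by
      intro h
      subst h
      linarith
    have hord : p j ≤ p i := by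
      apply cross_order h0 h1 R hij (by omega) (by omega) k
      · simpa [hd, EE, hf] using hdi
      · simpa [hd, EE, hf] using hdj
    have m1 := pi_mono h0 h1 R hij (by omega) (by omega) k hord
    have m2 := r_mono h0 h1 R hij hi2 hj2 k hord
    simp only [hw]
    have : ((k : ℝ) - 1) * (p j * EE p R j k) ≤ ((k : ℝ) - 1) * (p i * EE p R i k) :=
      mul_le_mul_of_nonneg_left m1 (by linarith)
    linarith
  -- termwise lower bound of the Q term
  have hterm : ∀ i, (1 / 2) * ((R i : ℝ) * p i ^ 3 * (EE p R i k * DD p R i k))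
      ≤ (R i : ℝ) * p i ^ 3 * (EE p R i k * DD p R i k)
        - (1 / 2) * ((R i : ℝ) * p i ^ 4 * DD p R i k ^ 2) := by
    intro i
    by_cases hi0 : R i = 0
    · simp [hi0]
    have hi2 : 2 ≤ R i := by have := hR i; omega
    have a1 := r_le_pi h0 h1 R hi2 k
    have a2 := r_nonneg h0 h1 R i k
    have hRi : (0 : ℝ) ≤ (R i : ℝ) := by positivity
    have : 0 ≤ (p i ^ 2 * DD p R i k) * (p i * EE p R i k - p i ^ 2 * DD p R i k) :=
      mul_nonneg a2 (by linarith)
    have := mul_nonneg hRi this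
    nlinarith
  have hQ2 : (1 / 2) * ∑ i, (R i : ℝ) * p i ^ 3 * (EE p R i k * DD p R i k)
      ≤ ∑ i, (R i : ℝ) * p i ^ 3 * (EE p R i k * DD p R i k)
        - (1 / 2) * ∑ i, (R i : ℝ) * p i ^ 4 * DD p R i k ^ 2 := by
    rw [Finset.mul_sum, Finset.mul_sum, ← Finset.sum_sub_distrib]
    exact Finset.sum_le_sum (fun i _ => hterm i)
  -- combine, multiply by f
  have hfin : f * ((1 / 2) * ∑ i, (R i : ℝ) * p i ^ 3 * DD p R i k)
      ≤ f * ((k : ℝ) * ∑ i, (R i : ℝ) * p i ^ 2 * DD p R i k
        - ((k : ℝ) - 1) * ∑ i, (R i : ℝ) * p i ^ 2 * EE p R i k) := by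
    have e1 : ∑ i, (R i : ℝ) * w i * d i
        = (1 / 2) * ∑ i, (R i : ℝ) * p i ^ 3 * (EE p R i k * DD p R i k)
          - f * ((1 / 2) * ∑ i, (R i : ℝ) * p i ^ 3 * DD p R i k)
          + ((k : ℝ) - 1) * ∑ i, (R i : ℝ) * p i ^ 2 * EE p R i k ^ 2
          - ((k : ℝ) - 1) * (f * ∑ i, (R i : ℝ) * p i ^ 2 * EE p R i k) := by
      simp only [Finset.mul_sum]
      rw [← Finset.sum_sub_distrib, ← Finset.sum_add_distrib, ← Finset.sum_sub_distrib]
      apply Finset.sum_congr rfl
      intro i _
      simp only [hd, hw]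
      ring
    rw [e1] at hcheb
    have e2 : f * ((k : ℝ) * ∑ i, (R i : ℝ) * p i ^ 2 * DD p R i k
        - ((k : ℝ) - 1) * ∑ i, (R i : ℝ) * p i ^ 2 * EE p R i k)
        = (k : ℝ) * f * ∑ i, (R i : ℝ) * p i ^ 2 * DD p R i k
          - ((k : ℝ) - 1) * (f * ∑ i, (R i : ℝ) * p i ^ 2 * EE p R i k) := by ring
    rw [e2]
    linarith
  exact le_of_mul_le_mul_left hfin hfpos

end

end Vale.Agent.Lib.P328.PBinfCov
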